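import Mathlib

/-!
# P162 stage 2, part F2: a lower bound for the dimension of a level `k` representation

`Low ρ k` is the span of the vectors fixed by all transpositions inside some set of at least
`N - k` points.  A nonzero subrepresentation of `Low ρ k` without nonzero vectors fixed by the
transpositions inside more than `N - k` points has dimension at least `C(N/2, ⌈k/2⌉)`.
-/

open scoped BigOperators InnerProductSpace
open Equiv

set_option linter.unusedSectionVars false

namespace Vale.Agent.P162.H151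

variable {V : Type*} [NormedAddCommGroup V] [InnerProductSpace ℝ V]
variable {α : Type*} [DecidableEq α]

/-- The vectors fixed by all transpositions inside `B`. -/
def Inv (ρ : Perm α →* (V →ₗ[ℝ] V)) (B : Finset α) : Submodule ℝ V where
  carrier := {v | ∀ x ∈ B, ∀ y ∈ B, ρ (swap x y) v = v}
  add_mem' := by
    intro a b ha hb x hx y hy
    rw [map_add, ha x hx y hy, hb x hx y hy]
  zero_mem' := by
    intro x _ y _
    simp
  smul_mem' := by
    intro c a ha x hx y hy
    rw [map_smul, ha x hx y hy]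

theorem mem_Inv {ρ : Perm α →* (V →ₗ[ℝ] V)} {B : Finset α} {v : V} :
    v ∈ Inv ρ B ↔ ∀ x ∈ B, ∀ y ∈ B, ρ (swap x y) v = v := Iff.rfl

theorem Inv_anti {ρ : Perm α →* (V →ₗ[ℝ] V)} {B C : Finset α} (h : B ⊆ C) :
    Inv ρ C ≤ Inv ρ B := fun _ hv x hx y hy => hv x (h hx) y (h hy)

/-- The span of the vectors fixed by the transpositions inside at least `N - k` points. -/
def Low [Fintype α] (ρ : Perm α →* (V →ₗ[ℝ] V)) (k : ℕ) : Submodule ℝ V :=
  ⨆ (B : Finset α) (_ : Fintype.card α ≤ B.card + k), Inv ρ B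

theorem Inv_le_Low [Fintype α] {ρ : Perm α →* (V →ₗ[ℝ] V)} {B : Finset α} {k : ℕ}
    (h : Fintype.card α ≤ B.card + k) : Inv ρ B ≤ Low ρ k :=
  le_iSup₂_of_le (f := fun (B : Finset α) (_ : Fintype.card α ≤ B.card + k) => Inv ρ B) B h le_rfl

theorem Low_mono [Fintype α] {ρ : Perm α →* (V →ₗ[ℝ] V)} {j k : ℕ} (h : j ≤ k) :
    Low ρ j ≤ Low ρ k :=
  iSup₂_le fun _ hB => Inv_le_Low (hB.trans (by omega))

section
variable {ρ : Perm α →* (V →ₗ[ℝ] V)}

theorem inner_map (hρ : ∀ g v, ‖ρ g v‖ = ‖v‖) (g : Perm α) (v w : V) :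
    ⟪ρ g v, ρ g w⟫_ℝ = ⟪v, w⟫_ℝ :=
  (LinearIsometry.mk (ρ g) (hρ g)).inner_map_map v w

theorem map_mul_apply (g h : Perm α) (v : V) : ρ (g * h) v = ρ g (ρ h v) := by
  rw [map_mul]; rfl

/-- There is a nonzero vector of `W` antisymmetric under `j` disjoint transpositions. -/
def Alt (ρ : Perm α →* (V →ₗ[ℝ] V)) (W : Submodule ℝ V) (j : ℕ) : Prop :=
  ∃ e : Fin j × Bool → α, Function.Injective e ∧ ∃ u ∈ W, u ≠ 0 ∧
    ∀ i, ρ (swap (e (i, false)) (e (i, true))) u = -u

theorem alt_zero {W : Submodule ℝ V} (hW : W ≠ ⊥) : Alt ρ W 0 := by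
  obtain ⟨u, hu, hu0⟩ := (Submodule.ne_bot_iff W).1 hW
  exact ⟨fun p => p.1.elim0, fun p => p.1.elim0, u, hu, hu0, fun i => i.elim0⟩

/-- Extension of a matching by one pair. -/
def ext {j : ℕ} (e : Fin j × Bool → α) (x y : α) (p : Fin (j + 1) × Bool) : α :=
  Fin.cases (motive := fun _ => α) (if p.2 then y else x) (fun i => e (i, p.2)) p.1

theorem ext_injective {j : ℕ} {e : Fin j × Bool → α} (he : Function.Injective e) {x y : α}
    (hx : x ∉ Set.range e) (hy : y ∉ Set.range e) (hxy : x ≠ y) :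
    Function.Injective (ext e x y) := by
  rintro ⟨i, b⟩ ⟨i', b'⟩ h
  revert h
  refine Fin.cases ?_ (fun i => ?_) i <;> refine Fin.cases ?_ (fun i' => ?_) i'
  · intro h
    cases b <;> cases b' <;> simp [ext] at h ⊢
    · exact hxy h
    · exact hxy h.symm
  · intro h
    exfalso
    cases b <;> simp [ext] at h
    · exact hx ⟨_, h.symm⟩
    · exact hy ⟨_, h.symm⟩
  · intro h
    exfalso
    cases b' <;> simp [ext] at h
    · exact hx ⟨_, h⟩
    · exact hy ⟨_, h⟩
  · intro h
    simp only [ext, Fin.cases_succ] at h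
    have := he h
    simp only [Prod.mk.injEq] at this ⊢
    exact ⟨by rw [this.1], this.2⟩

theorem commute_swap {a b x y : α} (h1 : a ≠ x) (h2 : a ≠ y) (h3 : b ≠ x) (h4 : b ≠ y) :
    swap a b * swap x y = swap x y * swap a b := by
  have : swap x y * swap a b * (swap x y)⁻¹ = swap (swap x y a) (swap x y b) := by
    rw [mul_swap_eq_swap_mul]; simp
  rw [swap_apply_of_ne_of_ne h1 h2, swap_apply_of_ne_of_ne h3 h4] at this
  calc swap a b * swap x y = (swap x y * swap a b * (swap x y)⁻¹) * swap x y := by rw [this]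
    _ = swap x y * swap a b := by rw [inv_mul_cancel_right]

/-- Antisymmetrising in one more pair. -/
theorem alt_succ {W : Submodule ℝ V} (hinv : ∀ g, ∀ w ∈ W, ρ g w ∈ W) {j : ℕ}
    {e : Fin j × Bool → α} (he : Function.Injective e) {u : V} (hu : u ∈ W)
    (hanti : ∀ i, ρ (swap (e (i, false)) (e (i, true))) u = -u) {x y : α}
    (hx : x ∉ Set.range e) (hy : y ∉ Set.range e) (hne : ρ (swap x y) u ≠ u) :
    Alt ρ W (j + 1) := by
  have hxy : x ≠ y := by
    rintro rfl
    apply hne
    rw [swap_self]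
    exact congrArg (fun A : V →ₗ[ℝ] V => A u) (map_one ρ)
  refine ⟨ext e x y, ext_injective he hx hy hxy, u - ρ (swap x y) u,
    W.sub_mem hu (hinv _ _ hu), fun h => hne (sub_eq_zero.1 h).symm, ?_⟩
  intro i
  refine Fin.cases ?_ (fun i => ?_) i
  · simp only [ext, Fin.cases_zero]
    rw [map_sub, ← map_mul_apply]
    simp
  · simp only [ext, Fin.cases_succ]
    have hc := commute_swap (a := e (i, false)) (b := e (i, true)) (x := x) (y := y)
      (fun h => hx ⟨_, h⟩) (fun h => hy ⟨_, h⟩) (fun h => hx ⟨_, h⟩) (fun h => hy ⟨_, h⟩)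
    rw [map_sub, ← map_mul_apply, hc, map_mul_apply, hanti i, map_neg]
    abel

variable [Fintype α]

/-- At a level at least `k`, one can antisymmetrise in `⌈k/2⌉` pairs. -/
theorem alt_of_level {W : Submodule ℝ V} (hW : W ≠ ⊥) (hinv : ∀ g, ∀ w ∈ W, ρ g w ∈ W) {k : ℕ}
    (hhigh : ∀ B : Finset α, Fintype.card α < B.card + k → ∀ w ∈ W, w ∈ Inv ρ B → w = 0)
    (j : ℕ) (hj : 2 * j < k + 2) : Alt ρ W j := by
  induction j with
  | zero => exact alt_zero hW
  | succ j ih =>
    obtain ⟨e, he, u, hu, hu0, hanti⟩ := ih (by omega)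
    by_contra hcon
    apply hu0
    apply hhigh (Finset.univ.image e)ᶜ ?_ u hu
    · rw [mem_Inv]
      intro x hx y hy
      by_contra hne
      apply hcon
      refine alt_succ hinv he hu hanti (x := x) (y := y) ?_ ?_ hne
      · simpa using hx
      · simpa using hy
    · rw [Finset.card_compl, Finset.card_image_of_injective _ he, Finset.card_univ,
        Fintype.card_prod, Fintype.card_fin, Fintype.card_bool]
      have := Fintype.card_le_of_injective e he
      rw [Fintype.card_prod, Fintype.card_fin, Fintype.card_bool] at this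
      omega

/-- In `Low ρ k`, one can antisymmetrise in at most `k` pairs. -/
theorem alt_le (hρ : ∀ g v, ‖ρ g v‖ = ‖v‖) {W : Submodule ℝ V} {k : ℕ} (hlow : W ≤ Low ρ k)
    {j : ℕ} (h : Alt ρ W j) : j ≤ k := by
  obtain ⟨e, he, u, hu, hu0, hanti⟩ := h
  by_contra hcon
  push Not at hcon
  apply hu0
  have key : Low ρ k ≤ (Submodule.span ℝ {u})ᗮ := by
    refine iSup₂_le fun B hB f hf => ?_
    rw [Submodule.mem_orthogonal_singleton_iff_inner_right]
    have hex : ∃ i, e (i, false) ∈ B ∧ e (i, true) ∈ B := by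
      by_contra hno
      push Not at hno
      -- an injective choice of points of the complement
      let c : Fin j → α := fun i => if e (i, false) ∈ B then e (i, true) else e (i, false)
      have hc : ∀ i, c i ∈ Bᶜ := by
        intro i
        simp only [c]
        split_ifs with h1
        · simpa using hno i h1
        · simpa using h1
      have hci : Function.Injective c := by
        intro i i' h
        simp only [c] at h
        split_ifs at h <;> have := he h <;> simp_all
      have h1 : (Finset.univ.image c).card ≤ (Bᶜ).card := by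
        apply Finset.card_le_card
        intro x hx
        obtain ⟨i, _, rfl⟩ := Finset.mem_image.1 hx
        exact hc i
      rw [Finset.card_image_of_injective _ hci, Finset.card_univ, Fintype.card_fin,
        Finset.card_compl] at h1
      omega
    obtain ⟨i, h1, h2⟩ := hex
    have h3 := inner_map hρ (swap (e (i, false)) (e (i, true))) u f
    rw [hanti i, hf _ h1 _ h2, inner_neg_left] at h3
    linarith
  have h4 := key (hlow hu)
  rw [Submodule.mem_orthogonal_singleton_iff_inner_right] at h4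
  exact inner_self_eq_zero.1 h4

theorem exists_perm_extend {ι : Type*} [Fintype ι] {e f : ι → α}
    (he : Function.Injective e) (hf : Function.Injective f) : ∃ g : Perm α, ∀ i, g (e i) = f i := by
  classical
  refine ⟨((Equiv.ofInjective e he).symm.trans (Equiv.ofInjective f hf)).extendSubtype,
    fun i => ?_⟩
  rw [Equiv.extendSubtype_apply_of_mem _ _ ⟨i, rfl⟩]
  simp

theorem choose_mono_half {n a b : ℕ} (h : a ≤ b) (hb : 2 * b ≤ n) : n.choose a ≤ n.choose b := by
  induction b with
  | zero =>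
    have : a = 0 := by omega
    subst this; exact le_rfl
  | succ b ih =>
    rcases Nat.lt_or_ge a (b + 1) with h1 | h1
    · exact (ih (by omega) (by omega)).trans (Nat.choose_le_succ_of_lt_half_left (by omega))
    · have : a = b + 1 := by omega
      subst this; exact le_rfl

theorem exists_max_alt (hρ : ∀ g v, ‖ρ g v‖ = ‖v‖) {W : Submodule ℝ V} (hW : W ≠ ⊥)
    (hinv : ∀ g, ∀ w ∈ W, ρ g w ∈ W) {k : ℕ} (hlow : W ≤ Low ρ k)
    (hhigh : ∀ B : Finset α, Fintype.card α < B.card + k → ∀ w ∈ W, w ∈ Inv ρ B → w = 0) :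
    ∃ j, (k + 1) / 2 ≤ j ∧ j ≤ k ∧ Alt ρ W j ∧ ¬ Alt ρ W (j + 1) := by
  classical
  have h1 := alt_of_level hW hinv hhigh ((k + 1) / 2) (by omega)
  refine ⟨Nat.findGreatest (Alt ρ W) k, Nat.le_findGreatest (alt_le hρ hlow h1) h1,
    Nat.findGreatest_le _, Nat.findGreatest_spec (alt_le hρ hlow h1) h1, ?_⟩
  intro h2
  have h3 := Nat.le_findGreatest (alt_le hρ hlow h2) h2
  omega

/-- **(D1)** The dimension of a nonzero representation of level exactly `k`. -/
theorem choose_le_finrank [FiniteDimensional ℝ V] (hρ : ∀ g v, ‖ρ g v‖ = ‖v‖)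
    {W : Submodule ℝ V} (hW : W ≠ ⊥)
    (hinv : ∀ g, ∀ w ∈ W, ρ g w ∈ W) {k : ℕ} (hk : 4 * k ≤ Fintype.card α) (hlow : W ≤ Low ρ k)
    (hhigh : ∀ B : Finset α, Fintype.card α < B.card + k → ∀ w ∈ W, w ∈ Inv ρ B → w = 0) :
    (Fintype.card α / 2).choose ((k + 1) / 2) ≤ Module.finrank ℝ W := by
  classical
  obtain ⟨j, hj1, hj2, ⟨e, he, u, hu, hu0, hanti⟩, hmax⟩ := exists_max_alt hρ hW hinv hlow hhigh
  set m := Fintype.card α / 2 with hm
  have hsymm : ∀ x y, x ∉ Set.range e → y ∉ Set.range e → ρ (swap x y) u = u := by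
    intro x y hx hy
    by_contra hne
    exact hmax (alt_succ hinv he hu hanti hx hy hne)
  obtain ⟨e₀⟩ : Nonempty (Fin m × Bool ↪ α) := by
    apply Function.Embedding.nonempty_of_card_le
    rw [Fintype.card_prod, Fintype.card_fin, Fintype.card_bool]
    omega
  let S := {K : Finset (Fin m) // K.card = j}
  have hcardS : Fintype.card S = m.choose j := by
    rw [Fintype.card_finset_len, Fintype.card_fin]
  let f : ∀ K : S, Fin j × Bool → α := fun K p => e₀ (K.1.orderEmbOfFin K.2 p.1, p.2)
  have hf : ∀ K : S, Function.Injective (f K) := by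
    rintro K ⟨i, b⟩ ⟨i', b'⟩ h
    have := e₀.injective h
    simp only [Prod.mk.injEq, EmbeddingLike.apply_eq_iff_eq] at this ⊢
    exact this
  choose g hg using fun K : S => exists_perm_extend he (hf K)
  have hconj : ∀ (K : S) (x y : α), ρ (swap x y) (ρ (g K) u) =
      ρ (g K) (ρ (swap ((g K)⁻¹ x) ((g K)⁻¹ y)) u) := by
    intro K x y
    rw [← map_mul_apply, ← map_mul_apply]
    congr 2
    rw [mul_swap_eq_swap_mul]
    simp
  have hin : ∀ (K : S) (i : Fin m), i ∈ K.1 →
      ρ (swap (e₀ (i, false)) (e₀ (i, true))) (ρ (g K) u) = -ρ (g K) u := by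
    intro K i hi
    obtain ⟨i', rfl⟩ : ∃ i', K.1.orderEmbOfFin K.2 i' = i := by
      have : i ∈ Set.range (K.1.orderEmbOfFin K.2) := by
        rw [Finset.range_orderEmbOfFin]; exact hi
      exact this
    have h1 : ∀ b, (g K)⁻¹ (e₀ (K.1.orderEmbOfFin K.2 i', b)) = e (i', b) := by
      intro b
      rw [Perm.inv_eq_iff_eq]
      exact (hg K (i', b)).symm
    rw [hconj, h1, h1, hanti, map_neg]
  have hout : ∀ (K : S) (i : Fin m), i ∉ K.1 →
      ρ (swap (e₀ (i, false)) (e₀ (i, true))) (ρ (g K) u) = ρ (g K) u := by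
    intro K i hi
    have h1 : ∀ b, (g K)⁻¹ (e₀ (i, b)) ∉ Set.range e := by
      rintro b ⟨⟨i', b'⟩, h⟩
      have h2 : e₀ (i, b) = f K (i', b') := by
        rw [← hg K, h]; simp
      have h3 := e₀.injective h2
      simp only [Prod.mk.injEq] at h3
      apply hi
      rw [h3.1]
      exact Finset.orderEmbOfFin_mem _ _ _
    rw [hconj, hsymm _ _ (h1 _) (h1 _)]
  have horth : ∀ K K' : S, K ≠ K' → ⟪ρ (g K) u, ρ (g K') u⟫_ℝ = 0 := by
    intro K K' hne
    have hne' : K.1 ≠ K'.1 := fun h => hne (Subtype.ext h)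
    obtain ⟨i, hi⟩ : ∃ i, ¬ (i ∈ K.1 ↔ i ∈ K'.1) := by
      by_contra hcon
      push Not at hcon
      exact hne' (Finset.ext hcon)
    have h0 := inner_map hρ (swap (e₀ (i, false)) (e₀ (i, true))) (ρ (g K) u) (ρ (g K') u)
    by_cases h1 : i ∈ K.1
    · have h2 : i ∉ K'.1 := fun h => hi ⟨fun _ => h, fun _ => h1⟩
      rw [hin K i h1, hout K' i h2, inner_neg_left] at h0
      linarith
    · have h2 : i ∈ K'.1 := by
        by_contra h
        exact hi ⟨fun h' => absurd h' h1, fun h' => absurd h' h⟩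
      rw [hout K i h1, hin K' i h2, inner_neg_right] at h0
      linarith
  have hne0 : ∀ K : S, ρ (g K) u ≠ 0 := by
    intro K h
    have := hρ (g K) u
    rw [h, norm_zero] at this
    exact hu0 (norm_eq_zero.1 this.symm)
  let w : S → W := fun K => ⟨ρ (g K) u, hinv _ _ hu⟩
  have hli : LinearIndependent ℝ w := by
    apply linearIndependent_of_ne_zero_of_inner_eq_zero
    · intro K h
      exact hne0 K (congrArg Subtype.val h)
    · intro K K' h
      exact horth K K' h
  have h1 := hli.fintype_card_le_finrank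
  rw [hcardS] at h1
  exact (choose_mono_half hj1 (by omega)).trans h1

end

end Vale.Agent.P162.H151
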