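import Mathlib

/-!
# P162 stage 2, part F2: a trace inequality in the group algebra
-/

open scoped BigOperators InnerProductSpace

set_option linter.unusedSectionVars false

namespace Vale.Agent.P162.H151

variable {G : Type*} [Group G] [Fintype G] [DecidableEq G]

theorem inner_eq_sum (f g : EuclideanSpace ℝ G) : ⟪f, g⟫_ℝ = ∑ h, f h * g h := by
  rw [PiLp.inner_apply]
  refine Finset.sum_congr rfl fun h _ => ?_
  simp [mul_comm]

theorem norm_sq_eq_sum (f : EuclideanSpace ℝ G) : ‖f‖ ^ 2 = ∑ h, f h ^ 2 := by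
  rw [← real_inner_self_eq_norm_sq, inner_eq_sum]
  exact Finset.sum_congr rfl fun h _ => by ring

/-- `A` is the convolution operator of the function `a`. -/
def IsConv (A : EuclideanSpace ℝ G →ₗ[ℝ] EuclideanSpace ℝ G) (a : G → ℝ) : Prop :=
  ∀ f h, A f h = ∑ g, a g * f (g⁻¹ * h)

/-- Right translation. -/
def rt (s : G) : EuclideanSpace ℝ G →ₗ[ℝ] EuclideanSpace ℝ G where
  toFun f := WithLp.toLp 2 (fun h => f (h * s))
  map_add' f g := by ext h; rfl
  map_smul' c f := by ext h; rfl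

theorem rt_apply (s : G) (f : EuclideanSpace ℝ G) (h : G) : rt s f h = f (h * s) := rfl

theorem IsConv.rt {A : EuclideanSpace ℝ G →ₗ[ℝ] EuclideanSpace ℝ G} {a : G → ℝ}
    (hA : IsConv A a) (s : G) (f : EuclideanSpace ℝ G) : A (rt s f) = rt s (A f) := by
  ext h
  rw [hA, rt_apply, hA]
  refine Finset.sum_congr rfl fun g _ => ?_
  rw [rt_apply, mul_assoc]

theorem IsConv.single {A : EuclideanSpace ℝ G →ₗ[ℝ] EuclideanSpace ℝ G} {a : G → ℝ}
    (hA : IsConv A a) (y h : G) : A (EuclideanSpace.single y 1) h = a (h * y⁻¹) := by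
  rw [hA, Finset.sum_eq_single (h * y⁻¹)]
  · simp
  · intro g _ hg
    have : g⁻¹ * h ≠ y := by
      rintro rfl
      apply hg
      simp
    simp [this]
  · simp

/-- The trace inequality: the convolution operator `A = B²` of a class function `a` acts on a
space of right `S`-invariant functions; its trace there is at most `(|G|/|S|) ∑_{s ∈ S} a s`. -/
theorem trace_le {A B : EuclideanSpace ℝ G →ₗ[ℝ] EuclideanSpace ℝ G} {a b : G → ℝ}
    (hA : IsConv A a) (hB : IsConv B b) (hAB : ∀ f, A f = B (B f))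
    (hsym : ∀ f g, ⟪B f, g⟫_ℝ = ⟪f, B g⟫_ℝ) (hclass : ∀ g h, a (h * g * h⁻¹) = a g)
    (S : Subgroup G) [DecidablePred (· ∈ S)]
    (W : Submodule ℝ (EuclideanSpace ℝ G)) (hW : ∀ w ∈ W, ∀ s ∈ S, ∀ h, w (h * s) = w h)
    {l : ℝ} (hl : ∀ w ∈ W, ⟪w, A w⟫_ℝ = l * ‖w‖ ^ 2) :
    l * Module.finrank ℝ W * (Fintype.card S : ℝ) ≤
      Fintype.card G * ∑ s : S, a s := by
  set D := Module.finrank ℝ W with hD
  let w := stdOrthonormalBasis ℝ W
  have hcS : (0 : ℝ) < Fintype.card S := by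
    exact_mod_cast Fintype.card_pos
  -- averages of the columns of `B`
  let c : G → EuclideanSpace ℝ G := fun h =>
    (Fintype.card S : ℝ)⁻¹ • ∑ s : S, B (EuclideanSpace.single (h * (s : G)⁻¹) 1)
  have hc1 : ∀ h, ∀ v ∈ W, ⟪c h, v⟫_ℝ = B v h := by
    intro h v hv
    simp only [c]
    rw [real_inner_smul_left, sum_inner]
    have : ∀ s : S, ⟪B (EuclideanSpace.single (h * (s : G)⁻¹) (1:ℝ)), v⟫_ℝ = B v h := by
      intro s
      rw [hsym, EuclideanSpace.inner_single_left]
      simp only [map_one, one_mul]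
      rw [hB, hB]
      refine Finset.sum_congr rfl fun g _ => ?_
      rw [← mul_assoc, hW v hv _ (S.inv_mem s.2)]
    rw [Finset.sum_congr rfl fun s _ => this s, Finset.sum_const, Finset.card_univ,
      nsmul_eq_mul, ← mul_assoc, inv_mul_cancel₀ hcS.ne', one_mul]
  have hc2 : ∀ h, ‖c h‖ ^ 2 = (Fintype.card S : ℝ)⁻¹ * ∑ s : S, a s := by
    intro h
    rw [← real_inner_self_eq_norm_sq]
    simp only [c]
    rw [real_inner_smul_left, real_inner_smul_right, sum_inner]
    have h1 : ∀ s : S, ⟪B (EuclideanSpace.single (h * (s : G)⁻¹) (1:ℝ)),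
        ∑ t : S, B (EuclideanSpace.single (h * (t : G)⁻¹) (1:ℝ))⟫_ℝ = ∑ t : S, a t := by
      intro s
      rw [inner_sum]
      refine Fintype.sum_equiv (Equiv.mulLeft s⁻¹) _ _ fun t => ?_
      rw [hsym, ← hAB, EuclideanSpace.inner_single_left]
      simp only [map_one, one_mul]
      rw [hA.single]
      have : h * (s : G)⁻¹ * (h * (t : G)⁻¹)⁻¹ = h * ((s : G)⁻¹ * t) * h⁻¹ := by group
      rw [this, hclass]
      simp
    rw [Finset.sum_congr rfl fun s _ => h1 s, Finset.sum_const, Finset.card_univ, nsmul_eq_mul]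
    field_simp
  -- the main computation
  have h1 : ∀ j, l = ∑ h, ⟪c h, (w j : EuclideanSpace ℝ G)⟫_ℝ ^ 2 := by
    intro j
    have h2 := hl (w j) (w j).2
    have h3 : ‖(w j : EuclideanSpace ℝ G)‖ = 1 := w.orthonormal.1 j
    rw [h3, one_pow, mul_one, hAB, ← hsym, real_inner_self_eq_norm_sq, norm_sq_eq_sum] at h2
    rw [← h2]
    refine Finset.sum_congr rfl fun h _ => ?_
    rw [hc1 h _ (w j).2]
  have h2 : l * D = ∑ j, ∑ h, ⟪c h, (w j : EuclideanSpace ℝ G)⟫_ℝ ^ 2 := by
    rw [← Finset.sum_congr rfl fun j _ => h1 j, Finset.sum_const, Finset.card_univ,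
      Fintype.card_fin, nsmul_eq_mul, mul_comm]
  have hon : Orthonormal ℝ (fun j => (w j : EuclideanSpace ℝ G)) := by
    have := w.orthonormal.comp_linearIsometry W.subtypeₗᵢ
    exact this
  have h3 : l * D ≤ ∑ h : G, (Fintype.card S : ℝ)⁻¹ * ∑ s : S, a s := by
    rw [h2, Finset.sum_comm]
    refine Finset.sum_le_sum fun h _ => ?_
    rw [← hc2]
    have h4 := hon.sum_inner_products_le (c h) (s := Finset.univ)
    refine le_trans (le_of_eq ?_) h4
    refine Finset.sum_congr rfl fun j _ => ?_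
    rw [Real.norm_eq_abs, sq_abs, real_inner_comm]
  rw [Finset.sum_const, Finset.card_univ, nsmul_eq_mul] at h3
  calc l * D * (Fintype.card S : ℝ) ≤
      (Fintype.card G * ((Fintype.card S : ℝ)⁻¹ * ∑ s : S, a s)) * Fintype.card S :=
        mul_le_mul_of_nonneg_right h3 hcS.le
    _ = Fintype.card G * ∑ s : S, a s := by field_simp

end Vale.Agent.P162.H151
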