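import Vale.Agent.P162.S2.Iface
import Vale.Agent.P162.H151.Dim
import Vale.Agent.P162.H151.Trace

/-!
# P162 stage 2, part F2: the low levels of the regular representation
-/

open scoped BigOperators InnerProductSpace
open Equiv

set_option linter.unusedSectionVars false

namespace Vale.Agent.P162.H151

open Vale.Agent.P162.S2.Abs (FS lt lt_apply op op_apply InvS LowS trOn)

variable {α : Type*} [Fintype α] [DecidableEq α]

/-- The left regular representation. -/
noncomputable def lth (α : Type*) [Fintype α] [DecidableEq α] :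
    Perm α →* (FS α →ₗ[ℝ] FS α) where
  toFun g := lt g
  map_one' := by
    ext f h
    simp
  map_mul' g g' := by
    ext f h
    simp [mul_assoc]

theorem lth_apply (g : Perm α) : lth α g = lt g := rfl

theorem norm_lt (g : Perm α) (f : FS α) : ‖lt g f‖ = ‖f‖ := by
  have h1 : ‖lt g f‖ ^ 2 = ‖f‖ ^ 2 := by
    rw [norm_sq_eq_sum, norm_sq_eq_sum]
    exact Fintype.sum_equiv (Equiv.mulLeft g⁻¹) _ _ fun h => rfl
  exact (pow_left_inj₀ (norm_nonneg _) (norm_nonneg _) two_ne_zero).1 h1

theorem norm_lth (g : Perm α) (f : FS α) : ‖lth α g f‖ = ‖f‖ := norm_lt g f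

theorem InvS_eq (B : Finset α) : InvS B = Inv (lth α) B := rfl

theorem LowS_eq (k : ℕ) : LowS α k = Low (lth α) k := rfl

/-- Vectors fixed by the transpositions inside `B` are fixed by all permutations supported in
`B`. -/
theorem fixed_of_support {V : Type*} [NormedAddCommGroup V] [InnerProductSpace ℝ V]
    {ρ : Perm α →* (V →ₗ[ℝ] V)} {B : Finset α} {v : V} (hv : v ∈ Inv ρ B) :
    ∀ (n : ℕ) (g : Perm α), g.support.card = n → g.support ⊆ B → ρ g v = v := by
  intro n
  induction n using Nat.strong_induction_on with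
  | _ n ih =>
    intro g hn hg
    by_cases h : g = 1
    · subst h
      exact congrArg (fun A : V →ₗ[ℝ] V => A v) (map_one ρ)
    · obtain ⟨x, hx⟩ : ∃ x, g x ≠ x := by
        by_contra hcon
        push Not at hcon
        exact h (Equiv.ext hcon)
      have h1 := Perm.card_support_swap_mul hx
      have hxB : x ∈ B := hg (Perm.mem_support.2 hx)
      have hgxB : g x ∈ B := hg (Perm.apply_mem_support.2 (Perm.mem_support.2 hx))
      have h2 : (swap x (g x) * g).support ⊆ B := by
        intro y hy
        by_contra hyB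
        have h3 : g y = y := by
          by_contra h4
          exact hyB (hg (Perm.mem_support.2 h4))
        rw [Perm.mem_support, Perm.mul_apply, h3, swap_apply_of_ne_of_ne] at hy
        · exact hy rfl
        · rintro rfl; exact hyB hxB
        · rintro rfl; exact hyB hgxB
      have h3 := ih _ (hn ▸ h1) _ rfl h2
      have h4 : g = swap x (g x) * (swap x (g x) * g) := by
        rw [← mul_assoc, swap_mul_self, one_mul]
      rw [h4, map_mul_apply, h3]
      exact hv x hxB (g x) hgxB

/-- A function fixed by the left translations by `S_B` only depends on the preimages of the points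
outside `B`. -/
theorem inv_eq {B : Finset α} {f : FS α} (hf : f ∈ Inv (lth α) B) {h h' : Perm α}
    (hh : ∀ x, x ∉ B → h⁻¹ x = h'⁻¹ x) : f h = f h' := by
  have h1 : lth α (h' * h⁻¹) f = f := by
    refine fixed_of_support hf _ _ rfl ?_
    intro x hx
    by_contra hxB
    rw [Perm.mem_support, Perm.mul_apply, hh x hxB] at hx
    exact hx (by simp)
  have h2 : lth α (h' * h⁻¹) f h' = f h' := by rw [h1]
  rw [lth_apply, lt_apply] at h2
  rw [← h2]
  group

/-- The indicator function of `{h | h (a i) = b i}`. -/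
noncomputable def ind {k : ℕ} (a b : Fin k → α) : FS α :=
  WithLp.toLp 2 (fun h => if ∀ i, h (a i) = b i then 1 else 0)

theorem ind_apply {k : ℕ} (a b : Fin k → α) (h : Perm α) :
    ind a b h = if ∀ i, h (a i) = b i then 1 else 0 := rfl

theorem low_le_span {k : ℕ} (hk : k ≤ Fintype.card α) :
    Low (lth α) k ≤ Submodule.span ℝ
      (Set.range fun p : (Fin k → α) × (Fin k → α) => ind p.1 p.2) := by
  classical
  refine iSup₂_le fun B hB f hf => ?_
  obtain ⟨C, hC1, -, hC2⟩ := Finset.exists_subsuperset_card_eq (Finset.subset_univ (Bᶜ))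
    (n := k) (by rw [Finset.card_compl]; omega) (by rw [Finset.card_univ]; exact hk)
  let e := C.equivFinOfCardEq hC2
  let b : Fin k → α := fun i => (e.symm i : α)
  have hb : ∀ x, x ∉ B → ∃ i, b i = x := by
    intro x hx
    have hxC : x ∈ C := hC1 (by simpa using hx)
    exact ⟨e ⟨x, hxC⟩, by simp [b]⟩
  let c : (Fin k → α) → ℝ := fun a =>
    if hx : ∃ h : Perm α, ∀ i, h (a i) = b i then f hx.choose else 0
  have key : f = ∑ a : Fin k → α, c a • ind a b := by
    ext h
    have h1 : (∑ a : Fin k → α, c a • ind a b) h = ∑ a : Fin k → α, c a * ind a b h := by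
      simp [WithLp.ofLp_sum, Finset.sum_apply]
    rw [h1, Finset.sum_eq_single (fun i => h⁻¹ (b i))]
    · have h2 : ∃ h' : Perm α, ∀ i, h' (h⁻¹ (b i)) = b i := ⟨h, fun i => by simp⟩
      have h3 : c (fun i => h⁻¹ (b i)) = f h2.choose := dif_pos h2
      rw [h3, ind_apply, if_pos (fun i => by simp), mul_one]
      apply inv_eq hf
      intro x hx
      obtain ⟨i, rfl⟩ := hb x hx
      have h4 := h2.choose_spec i
      rw [eq_comm, Perm.inv_eq_iff_eq]
      exact h4.symm
    · intro a _ ha
      rw [ind_apply, if_neg, mul_zero]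
      intro h2
      apply ha
      funext i
      rw [eq_comm, Perm.inv_eq_iff_eq]
      exact (h2 i).symm
    · simp
  rw [key]
  exact Submodule.sum_mem _ fun a _ => Submodule.smul_mem _ _
    (Submodule.subset_span ⟨(a, b), rfl⟩)

/-- **(F2a)** -/
theorem finrank_low_le {k : ℕ} (hk : k ≤ Fintype.card α) :
    Module.finrank ℝ (Low (lth α) k) ≤ Fintype.card α ^ (2 * k) := by
  refine (Submodule.finrank_mono (low_le_span hk)).trans ?_
  refine (finrank_range_le_card _).trans ?_
  rw [Fintype.card_prod, Fintype.card_fun, Fintype.card_fin, ← pow_add, two_mul]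

/-! ### Right translations -/

theorem rt_rt (s t : Perm α) (f : FS α) : rt s (rt t f) = rt (s * t) f := by
  ext h
  rw [rt_apply, rt_apply, rt_apply, mul_assoc]

theorem lth_rt (g s : Perm α) (f : FS α) : lth α g (rt s f) = rt s (lth α g f) := by
  ext h
  rw [lth_apply, lt_apply, rt_apply, rt_apply, lt_apply, mul_assoc]

theorem inner_rt (s : Perm α) (f g : FS α) : ⟪rt s f, g⟫_ℝ = ⟪f, rt s⁻¹ g⟫_ℝ := by
  rw [inner_eq_sum, inner_eq_sum]
  refine Fintype.sum_equiv (Equiv.mulRight s) _ _ fun h => ?_
  simp [rt_apply]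

theorem inner_lth (g : Perm α) (f f' : FS α) : ⟪lth α g f, f'⟫_ℝ = ⟪f, lth α g⁻¹ f'⟫_ℝ := by
  rw [← inner_map norm_lth g⁻¹ (lth α g f) f', ← map_mul_apply]
  simp

theorem rt_mem_low {k : ℕ} {f : FS α} (hf : f ∈ Low (lth α) k) (s : Perm α) :
    rt s f ∈ Low (lth α) k := by
  have h1 : Low (lth α) k ≤ (Low (lth α) k).comap (rt s) := by
    refine iSup₂_le fun B hB f hf => ?_
    refine Inv_le_Low hB ?_
    intro x hx y hy
    rw [lth_rt, hf x hx y hy]
  exact h1 hf

theorem lth_mem_low {k : ℕ} {f : FS α} (hf : f ∈ Low (lth α) k) (g : Perm α) :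
    lth α g f ∈ Low (lth α) k := by
  have h1 : Low (lth α) k ≤ (Low (lth α) k).comap (lth α g) := by
    refine iSup₂_le fun B hB f hf => ?_
    have hB' : Fintype.card α ≤ (B.image g).card + k := by
      rw [Finset.card_image_of_injective _ g.injective]; exact hB
    refine Inv_le_Low hB' ?_
    intro x hx y hy
    obtain ⟨x', hx', rfl⟩ := Finset.mem_image.1 hx
    obtain ⟨y', hy', rfl⟩ := Finset.mem_image.1 hy
    rw [← map_mul_apply, ← mul_swap_eq_swap_mul, map_mul_apply, hf x' hx' y' hy']
  exact h1 hf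

theorem rt_mem_low_orth {k : ℕ} {f : FS α} (hf : f ∈ (Low (lth α) k)ᗮ) (s : Perm α) :
    rt s f ∈ (Low (lth α) k)ᗮ := by
  rw [Submodule.mem_orthogonal'] at hf ⊢
  intro u hu
  rw [inner_rt]
  exact hf _ (rt_mem_low hu _)

theorem lth_mem_low_orth {k : ℕ} {f : FS α} (hf : f ∈ (Low (lth α) k)ᗮ) (g : Perm α) :
    lth α g f ∈ (Low (lth α) k)ᗮ := by
  rw [Submodule.mem_orthogonal'] at hf ⊢
  intro u hu
  rw [inner_lth]
  exact hf _ (lth_mem_low hu _)

/-! ### Pointwise stabilisers -/

/-- The permutations that fix `K` pointwise. -/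
def fixSub (K : Finset α) : Subgroup (Perm α) where
  carrier := {s | ∀ x ∈ K, s x = x}
  one_mem' := by intro x _; rfl
  mul_mem' := by
    intro a b ha hb x hx
    rw [Perm.mul_apply, hb x hx, ha x hx]
  inv_mem' := by
    intro a ha x hx
    rw [Perm.inv_eq_iff_eq]
    exact (ha x hx).symm

theorem mem_fixSub {K : Finset α} {s : Perm α} : s ∈ fixSub K ↔ ∀ x ∈ K, s x = x := Iff.rfl

instance (K : Finset α) : DecidablePred (· ∈ fixSub K) := fun s =>
  decidable_of_iff (∀ x ∈ K, s x = x) Iff.rfl

theorem card_fixSub (K : Finset α) :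
    Fintype.card (fixSub K) = (Fintype.card α - K.card).factorial := by
  have h1 : Fintype.card (fixSub K) = Fintype.card { f : Perm α // ∀ a, ¬ (a ∉ K) → f a = a } := by
    apply Fintype.card_congr
    refine Equiv.subtypeEquivRight fun s => ?_
    rw [mem_fixSub]
    constructor
    · intro h a ha
      exact h a (not_not.1 ha)
    · intro h a ha
      exact h a (not_not.2 ha)
  rw [h1, ← Fintype.card_congr (Perm.subtypeEquivSubtypePerm (fun a => a ∉ K)),
    Fintype.card_perm]
  congr 1
  rw [Fintype.card_subtype_compl, Fintype.card_coe]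

theorem card_perm_le (K : Finset α) :
    Fintype.card (Perm α) ≤ Fintype.card α ^ K.card * Fintype.card (fixSub K) := by
  rw [card_fixSub, Fintype.card_perm, ← Nat.factorial_mul_descFactorial (Finset.card_le_univ K),
    mul_comm]
  exact Nat.mul_le_mul_right _ (Nat.descFactorial_le_pow _ _)

/-- A nonzero right invariant space in `Low k` has a nonzero vector fixed by the right
translations by the pointwise stabiliser of some `k` points. -/
theorem exists_right_fixed {k : ℕ} (hk : k ≤ Fintype.card α) {W : Submodule ℝ (FS α)}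
    (hW : W ≠ ⊥) (hlow : W ≤ Low (lth α) k) (hrt : ∀ s, ∀ w ∈ W, rt s w ∈ W) :
    ∃ K : Finset α, K.card = k ∧ ∃ w ∈ W, w ≠ 0 ∧ ∀ s ∈ fixSub K, ∀ h, w (h * s) = w h := by
  obtain ⟨u, hu, hu0⟩ := (Submodule.ne_bot_iff W).1 hW
  obtain ⟨a, b, hab⟩ : ∃ a b : Fin k → α, ⟪u, ind a b⟫_ℝ ≠ 0 := by
    by_contra hcon
    push Not at hcon
    apply hu0
    have h1 : Submodule.span ℝ (Set.range fun p : (Fin k → α) × (Fin k → α) => ind p.1 p.2) ≤
        (Submodule.span ℝ {u})ᗮ := by
      rw [Submodule.span_le]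
      rintro _ ⟨⟨a, b⟩, rfl⟩
      rw [SetLike.mem_coe, Submodule.mem_orthogonal_singleton_iff_inner_right]
      exact hcon a b
    have h2 := h1 (low_le_span hk (hlow hu))
    rw [Submodule.mem_orthogonal_singleton_iff_inner_right] at h2
    exact inner_self_eq_zero.1 h2
  obtain ⟨K, hK1, -, hK2⟩ := Finset.exists_subsuperset_card_eq
    (Finset.subset_univ (Finset.univ.image a)) (n := k)
    (by
      refine Finset.card_image_le.trans ?_
      rw [Finset.card_univ, Fintype.card_fin]) (by rw [Finset.card_univ]; exact hk)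
  refine ⟨K, hK2, ∑ s : fixSub K, rt (s : Perm α) u, Submodule.sum_mem _ fun s _ => hrt _ _ hu,
    ?_, ?_⟩
  · intro h0
    have h1 : ⟪∑ s : fixSub K, rt (s : Perm α) u, ind a b⟫_ℝ =
        Fintype.card (fixSub K) * ⟪u, ind a b⟫_ℝ := by
      rw [sum_inner]
      have h2 : ∀ s : fixSub K, ⟪rt (s : Perm α) u, ind a b⟫_ℝ = ⟪u, ind a b⟫_ℝ := by
        intro s
        rw [inner_rt]
        congr 1
        ext h
        rw [rt_apply, ind_apply, ind_apply]
        have h3 : ∀ i, (s : Perm α)⁻¹ (a i) = a i := fun i =>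
          ((fixSub K).inv_mem s.2) (a i) (hK1 (Finset.mem_image_of_mem _ (Finset.mem_univ i)))
        simp only [Perm.mul_apply, h3]
      rw [Finset.sum_congr rfl fun s _ => h2 s, Finset.sum_const, Finset.card_univ, nsmul_eq_mul]
    rw [h0, inner_zero_left] at h1
    rcases mul_eq_zero.1 h1.symm with h2 | h2
    · have : (0 : ℝ) < Fintype.card (fixSub K) := by exact_mod_cast Fintype.card_pos
      exact this.ne' h2
    · exact hab h2
  · intro s hs h
    have h1 : ∀ x : Perm α, (∑ t : fixSub K, rt (t : Perm α) u) x = ∑ t : fixSub K, u (x * t) := by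
      intro x
      rw [WithLp.ofLp_sum, Finset.sum_apply]
      exact Finset.sum_congr rfl fun t _ => rt_apply _ _ _
    rw [h1, h1]
    refine Fintype.sum_equiv (Equiv.mulLeft ⟨s, hs⟩) _ _ fun t => ?_
    simp [mul_assoc]

end Vale.Agent.P162.H151
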