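import Vale.Agent.P162.Defs
import Vale.Agent.P162.H151.Reg

/-!
# P162 stage 2, part F2: the convolution operator on the level `k` functions
-/

open scoped BigOperators InnerProductSpace
open Equiv

set_option linter.unusedSectionVars false

namespace Vale.Agent.P162.H151

open Vale.Agent.P162 (conv convPow)
open Vale.Agent.P162.S2.Abs (FS lt lt_apply op op_apply InvS LowS trOn)

variable {α : Type*} [Fintype α] [DecidableEq α]

/-! ### Convolution powers -/

theorem isConv_op (q : Perm α → ℝ) : IsConv (op q) q := op_apply q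

theorem isConv_pow (q : Perm α → ℝ) (t : ℕ) : IsConv (op q ^ t) (convPow q t) := by
  induction t with
  | zero =>
    intro f h
    rw [pow_zero, Finset.sum_eq_single 1]
    · simp [convPow]
    · intro g _ hg
      simp [convPow, hg]
    · simp
  | succ t ih =>
    intro f h
    rw [pow_succ', Module.End.mul_apply, op_apply]
    simp only [convPow, conv]
    have h1 : ∀ g, q g * ((op q ^ t) f) (g⁻¹ * h) =
        ∑ x, q g * convPow q t (g⁻¹ * x) * f (x⁻¹ * h) := by
      intro g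
      rw [ih, Finset.mul_sum]
      refine Fintype.sum_equiv (Equiv.mulLeft g) _ _ fun x => ?_
      simp only [Equiv.coe_mulLeft, inv_mul_cancel_left, mul_inv_rev, mul_assoc]
    rw [Finset.sum_congr rfl fun g _ => h1 g, Finset.sum_comm]
    refine Finset.sum_congr rfl fun x _ => ?_
    rw [Finset.sum_mul]

theorem convPow_class {q : Perm α → ℝ} (hclass : ∀ x g, q (x * g * x⁻¹) = q g) (t : ℕ)
    (x g : Perm α) : convPow q t (x * g * x⁻¹) = convPow q t g := by
  induction t generalizing x g with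
  | zero =>
    simp only [convPow]
    congr 1
    rw [eq_iff_iff, mul_inv_eq_one, mul_eq_left]
  | succ t ih =>
    simp only [convPow, conv]
    refine Fintype.sum_equiv (MulAut.conj x⁻¹).toEquiv _ _ fun h => ?_
    have h1 : (MulAut.conj x⁻¹).toEquiv h = x⁻¹ * h * x := by
      simp
    rw [h1]
    have h2 : q (x⁻¹ * h * x) = q h := by
      have := hclass x⁻¹ h
      rwa [inv_inv] at this
    have h3 : h⁻¹ * (x * g * x⁻¹) = x * ((x⁻¹ * h * x)⁻¹ * g) * x⁻¹ := by group
    rw [h2, h3, ih]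

theorem convPow_nonneg {q : Perm α → ℝ} (hq : ∀ g, 0 ≤ q g) (t : ℕ) (g : Perm α) :
    0 ≤ convPow q t g := by
  induction t generalizing g with
  | zero =>
    simp only [convPow]
    split_ifs <;> norm_num
  | succ t ih =>
    simp only [convPow, conv]
    exact Finset.sum_nonneg fun h _ => mul_nonneg (hq _) (ih _)

theorem op_symm {q : Perm α → ℝ} (hsymm : ∀ g, q g⁻¹ = q g) (f f' : FS α) :
    ⟪op q f, f'⟫_ℝ = ⟪f, op q f'⟫_ℝ := by
  have h1 : op q f = ∑ g, q g • lth α g f := by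
    ext h
    rw [op_apply]
    simp [WithLp.ofLp_sum, Finset.sum_apply, lth_apply]
  have h2 : op q f' = ∑ g, q g • lth α g f' := by
    ext h
    rw [op_apply]
    simp [WithLp.ofLp_sum, Finset.sum_apply, lth_apply]
  rw [h1, h2, sum_inner, inner_sum]
  refine Fintype.sum_equiv (Equiv.inv _) _ _ fun g => ?_
  rw [real_inner_smul_left, real_inner_smul_right, inner_lth]
  simp [hsymm]

theorem op_pow_symm {q : Perm α → ℝ} (hsymm : ∀ g, q g⁻¹ = q g) (t : ℕ) (f f' : FS α) :
    ⟪(op q ^ t) f, f'⟫_ℝ = ⟪f, (op q ^ t) f'⟫_ℝ := by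
  induction t generalizing f f' with
  | zero => simp
  | succ t ih =>
    rw [pow_succ, Module.End.mul_apply, ih, op_symm hsymm, ← Module.End.mul_apply, ← pow_succ']
    rw [pow_succ]

theorem IsConv.lth {A : FS α →ₗ[ℝ] FS α} {a : Perm α → ℝ} (hA : IsConv A a)
    (hclass : ∀ x g, a (x * g * x⁻¹) = a g) (x : Perm α) (f : FS α) :
    A (lth α x f) = lth α x (A f) := by
  ext h
  rw [hA, lth_apply, lt_apply, hA]
  refine Fintype.sum_equiv (MulAut.conj x⁻¹).toEquiv _ _ fun g => ?_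
  have h1 : (MulAut.conj x⁻¹).toEquiv g = x⁻¹ * g * x := by simp
  have h2 : a (x⁻¹ * g * x) = a g := by
    have := hclass x⁻¹ g
    rwa [inv_inv] at this
  rw [h1, h2, lt_apply]
  congr 2
  group

theorem IsConv.mem_low {A : FS α →ₗ[ℝ] FS α} {a : Perm α → ℝ} (hA : IsConv A a) {k : ℕ}
    {f : FS α} (hf : f ∈ Low (H151.lth α) k) : A f ∈ Low (H151.lth α) k := by
  have h1 : A f = ∑ g, a g • H151.lth α g f := by
    ext h
    rw [hA]
    simp [WithLp.ofLp_sum, Finset.sum_apply, lth_apply]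
  rw [h1]
  exact Submodule.sum_mem _ fun g _ => Submodule.smul_mem _ _ (lth_mem_low hf g)

theorem IsConv.mem_low_orth {A : FS α →ₗ[ℝ] FS α} {a : Perm α → ℝ} (hA : IsConv A a) {k : ℕ}
    {f : FS α} (hf : f ∈ (Low (H151.lth α) k)ᗮ) : A f ∈ (Low (H151.lth α) k)ᗮ := by
  have h1 : A f = ∑ g, a g • H151.lth α g f := by
    ext h
    rw [hA]
    simp [WithLp.ofLp_sum, Finset.sum_apply, lth_apply]
  rw [h1]
  exact Submodule.sum_mem _ fun g _ => Submodule.smul_mem _ _ (lth_mem_low_orth hf g)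

/-! ### The eigenvalue bound -/

theorem rayleigh_le {E : Type*} [NormedAddCommGroup E] [InnerProductSpace ℝ E]
    [FiniteDimensional ℝ E] (T : E →ₗ[ℝ] E) (hT : T.IsSymmetric) (M : ℝ)
    (h : ∀ (μ : ℝ) (v : E), v ≠ 0 → T v = μ • v → μ ≤ M) (w : E) :
    ⟪T w, w⟫_ℝ ≤ M * ‖w‖ ^ 2 := by
  set b := hT.eigenvectorBasis (rfl : Module.finrank ℝ E = _) with hb
  have h1 : ∀ i, T (b i) = (hT.eigenvalues rfl i) • b i := fun i =>
    hT.apply_eigenvectorBasis rfl i
  have h2 : ∀ i, hT.eigenvalues rfl i ≤ M := fun i => h _ (b i) (by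
    have := b.orthonormal.ne_zero i
    exact this) (h1 i)
  rw [← b.sum_inner_mul_inner (T w) w, ← real_inner_self_eq_norm_sq,
    ← b.sum_inner_mul_inner w w, Finset.mul_sum]
  refine Finset.sum_le_sum fun i _ => ?_
  rw [hT w (b i), h1 i, real_inner_smul_right, mul_assoc, real_inner_comm (b i) w]
  have := h2 i
  nlinarith [mul_self_nonneg (⟪b i, w⟫_ℝ : ℝ)]

/-- The right fixed vectors of a space. -/
def rfix (W : Submodule ℝ (FS α)) (K : Finset α) : Submodule ℝ (FS α) where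
  carrier := {w | w ∈ W ∧ ∀ s ∈ fixSub K, ∀ h, w (h * s) = w h}
  add_mem' := by
    rintro a b ⟨ha, ha'⟩ ⟨hb, hb'⟩
    refine ⟨W.add_mem ha hb, fun s hs h => ?_⟩
    rw [PiLp.add_apply, PiLp.add_apply, ha' s hs, hb' s hs]
  zero_mem' := ⟨W.zero_mem, fun s _ h => rfl⟩
  smul_mem' := by
    rintro c a ⟨ha, ha'⟩
    refine ⟨W.smul_mem c ha, fun s hs h => ?_⟩
    rw [PiLp.smul_apply, PiLp.smul_apply, ha' s hs]

/-- **(F2b)** The convolution operator of `q ^ {*2m}` on the functions of level exactly `k`. -/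
theorem level_le {q : Perm α → ℝ} (hsymm : ∀ g, q g⁻¹ = q g)
    (hclass : ∀ x g, q (x * g * x⁻¹) = q g) {k : ℕ} (hk1 : 1 ≤ k) (hk : 4 * k ≤ Fintype.card α)
    {m : ℕ} {p : ℝ} (hp0 : 0 ≤ p)
    (hp : ∀ K : Finset α, K.card = k →
      ∑ s : Perm α with ∀ a ∈ K, s a = a, convPow q (m + m) s ≤ p)
    {f : FS α} (hf : f ∈ Low (lth α) k) (hf' : f ∈ (Low (lth α) (k - 1))ᗮ) :
    ⟪(op q ^ (m + m)) f, f⟫_ℝ ≤
      (Fintype.card α : ℝ) ^ k * p / ((Fintype.card α / 2).choose ((k + 1) / 2)) * ‖f‖ ^ 2 := by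
  classical
  set N := Fintype.card α with hN
  set D := (N / 2).choose ((k + 1) / 2) with hD
  have hDpos : 0 < D := Nat.choose_pos (by omega)
  set A := op q ^ (m + m) with hAdef
  set B := op q ^ m with hBdef
  have hA : IsConv A (convPow q (m + m)) := isConv_pow q _
  have hB : IsConv B (convPow q m) := isConv_pow q _
  have hAB : ∀ f, A f = B (B f) := fun f => by
    rw [hAdef, hBdef, ← Module.End.mul_apply, ← pow_add]
  have hAsymm : ∀ f f', ⟪A f, f'⟫_ℝ = ⟪f, A f'⟫_ℝ := op_pow_symm hsymm _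
  let U : Submodule ℝ (FS α) := Low (lth α) k ⊓ (Low (lth α) (k - 1))ᗮ
  have hU : ∀ f ∈ U, A f ∈ U := fun f hf => ⟨hA.mem_low hf.1, hA.mem_low_orth hf.2⟩
  have hlthU : ∀ g, ∀ f ∈ U, lth α g f ∈ U := fun g f hf =>
    ⟨lth_mem_low hf.1 g, lth_mem_low_orth hf.2 g⟩
  have hrtU : ∀ g, ∀ f ∈ U, rt g f ∈ U := fun g f hf =>
    ⟨rt_mem_low hf.1 g, rt_mem_low_orth hf.2 g⟩
  let T : U →ₗ[ℝ] U := A.restrict hU
  have hT : T.IsSymmetric := fun x y => hAsymm x y
  have key : ∀ (μ : ℝ) (v : U), v ≠ 0 → T v = μ • v → μ ≤ (N : ℝ) ^ k * p / D := by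
    intro μ v hv hTv
    rcases le_or_gt μ 0 with hμ | hμ
    · exact hμ.trans (by positivity)
    have hAv : A v = μ • (v : FS α) := congrArg Subtype.val hTv
    let W₀ : Submodule ℝ (FS α) := U ⊓ LinearMap.ker (A - μ • LinearMap.id)
    have hmemW₀ : ∀ w, w ∈ W₀ ↔ w ∈ U ∧ A w = μ • w := by
      intro w
      simp only [W₀, Submodule.mem_inf, LinearMap.mem_ker, LinearMap.sub_apply,
        LinearMap.smul_apply, LinearMap.id_apply, sub_eq_zero]
    have hW₀ : W₀ ≠ ⊥ := by
      rw [Submodule.ne_bot_iff]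
      exact ⟨v, (hmemW₀ _).2 ⟨v.2, hAv⟩, fun h => hv (Subtype.ext h)⟩
    have hrtW₀ : ∀ s, ∀ w ∈ W₀, rt s w ∈ W₀ := by
      intro s w hw
      rw [hmemW₀] at hw ⊢
      exact ⟨hrtU s w hw.1, by rw [hA.rt, hw.2, map_smul]⟩
    have hlthW₀ : ∀ s, ∀ w ∈ W₀, lth α s w ∈ W₀ := by
      intro s w hw
      rw [hmemW₀] at hw ⊢
      exact ⟨hlthU s w hw.1, by rw [hA.lth (convPow_class hclass _), hw.2, map_smul]⟩
    obtain ⟨K, hK, w, hw, hw0, hws⟩ := exists_right_fixed (k := k) (by omega) hW₀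
      (fun w hw => (hw.1).1) hrtW₀
    let W : Submodule ℝ (FS α) := rfix W₀ K
    have hWbot : W ≠ ⊥ := by
      rw [Submodule.ne_bot_iff]
      exact ⟨w, ⟨hw, hws⟩, hw0⟩
    have hWinv : ∀ g, ∀ w ∈ W, lth α g w ∈ W := by
      intro g w hw
      refine ⟨hlthW₀ g w hw.1, fun s hs h => ?_⟩
      rw [lth_apply, lt_apply, lt_apply, ← mul_assoc, hw.2 s hs]
    have hdim : D ≤ Module.finrank ℝ W := by
      refine choose_le_finrank norm_lth hWbot hWinv hk (fun w hw => hw.1.1.1) ?_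
      intro C hC w hw hwC
      have h1 : w ∈ Low (lth α) (k - 1) := Inv_le_Low (by omega) hwC
      have h2 : w ∈ (Low (lth α) (k - 1))ᗮ := hw.1.1.2
      rw [Submodule.mem_orthogonal'] at h2
      exact inner_self_eq_zero.1 (h2 w h1)
    have htr := trace_le hA hB hAB (op_pow_symm hsymm m) (fun g h => convPow_class hclass _ h g)
      (fixSub K) W (fun w hw => hw.2) (l := μ) (by
        intro w hw
        rw [((hmemW₀ w).1 hw.1).2, real_inner_smul_right, real_inner_self_eq_norm_sq])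
    have hsum : ∑ s : fixSub K, convPow q (m + m) s ≤ p := by
      refine le_trans (le_of_eq ?_) (hp K hK)
      rw [Finset.sum_filter, ← Finset.sum_subtype (Finset.univ.filter fun s => s ∈ fixSub K)
        (by simp), Finset.sum_filter]
      refine Finset.sum_congr rfl fun s _ => ?_
      by_cases h : ∀ a ∈ K, s a = a
      · rw [if_pos h, if_pos (show s ∈ fixSub K from h)]
      · rw [if_neg h, if_neg (show s ∉ fixSub K from h)]
    have hcard : (Fintype.card (Perm α) : ℝ) ≤ (N : ℝ) ^ k * Fintype.card (fixSub K) := by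
      have := card_perm_le K
      rw [hK] at this
      exact_mod_cast this
    have hSpos : (0 : ℝ) < Fintype.card (fixSub K) := by exact_mod_cast Fintype.card_pos
    have hDr : (0 : ℝ) < D := by exact_mod_cast hDpos
    have h1 : μ * D * Fintype.card (fixSub K) ≤ (N : ℝ) ^ k * p * Fintype.card (fixSub K) := by
      calc μ * D * Fintype.card (fixSub K)
          ≤ μ * Module.finrank ℝ W * Fintype.card (fixSub K) := by
            have : (D : ℝ) ≤ Module.finrank ℝ W := by exact_mod_cast hdim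
            gcongr
        _ ≤ Fintype.card (Perm α) * ∑ s : fixSub K, convPow q (m + m) s := htr
        _ ≤ Fintype.card (Perm α) * p := by gcongr
        _ ≤ ((N : ℝ) ^ k * Fintype.card (fixSub K)) * p := by gcongr
        _ = (N : ℝ) ^ k * p * Fintype.card (fixSub K) := by ring
    rw [le_div_iff₀ hDr]
    exact le_of_mul_le_mul_right h1 hSpos
  have h1 := rayleigh_le T hT _ key ⟨f, hf, hf'⟩
  exact h1

end Vale.Agent.P162.H151
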