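import Vale.Agent.P162.H151.Sum
import Vale.Agent.P162.H560.F1

/-!
# P162 stage 2, part F: the low levels, numerics
-/

open scoped BigOperators InnerProductSpace
open Equiv

set_option linter.unusedSectionVars false

namespace Vale.Agent.P162.H151

open Vale.Agent.P162 (conv convPow)
open Vale.Agent.P162.S2.Abs (FS lt lt_apply op op_apply InvS LowS trOn Data PropF)

/-- A lower bound for the binomial coefficient. -/
theorem div_pow_le_choose {N k : ℕ} (hk1 : 1 ≤ k) (hk : 4 * k ≤ N) :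
    ((N : ℝ) / (4 * k)) ^ ((k + 1) / 2) ≤ ((N / 2).choose ((k + 1) / 2) : ℝ) := by
  set j := (k + 1) / 2 with hj
  have hj1 : 1 ≤ j := by omega
  have hjk : j ≤ k := by omega
  have hk0 : (0 : ℝ) < k := by exact_mod_cast hk1
  have hj0 : (0 : ℝ) < j := by exact_mod_cast hj1
  have h1 := Nat.pow_le_choose (α := ℝ) j (N / 2)
  refine le_trans ?_ h1
  have h2 : ((j.factorial : ℕ) : ℝ) ≤ (j : ℝ) ^ j := by exact_mod_cast Nat.factorial_le_pow j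
  have h3 : (N : ℝ) / 4 ≤ ((N / 2 + 1 - j : ℕ) : ℝ) := by
    have : N ≤ 4 * (N / 2 + 1 - j) := by omega
    have h4 : (N : ℝ) ≤ 4 * ((N / 2 + 1 - j : ℕ) : ℝ) := by exact_mod_cast this
    linarith
  have hN0 : (0 : ℝ) ≤ N := Nat.cast_nonneg _
  calc ((N : ℝ) / (4 * k)) ^ j ≤ ((N : ℝ) / 4 / j) ^ j := by
        apply pow_le_pow_left₀ (by positivity)
        rw [div_div]
        apply div_le_div_of_nonneg_left hN0 (by positivity)
        have : (j : ℝ) ≤ k := by exact_mod_cast hjk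
        linarith
    _ = ((N : ℝ) / 4) ^ j / (j : ℝ) ^ j := by rw [div_pow]
    _ ≤ (((N / 2 + 1 - j : ℕ) : ℝ)) ^ j / (j : ℝ) ^ j := by gcongr
    _ ≤ (((N / 2 + 1 - j : ℕ) : ℝ)) ^ j / (j.factorial : ℝ) := by
        apply div_le_div_of_nonneg_left (by positivity) _ h2
        exact_mod_cast Nat.factorial_pos j

/-- The constant of the bound for `p`. -/
theorem const_le {N : ℝ} (hN : 0 < N) (m k : ℕ) (hk1 : 1 ≤ k) :
    N ^ k * ((m + 1) * ((2 / N) ^ k * (2 * 3 ^ k) ^ m)) ≤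
      (2 * (m + 1) * 6 ^ m : ℝ) ^ k := by
  have h1 : N ^ k * ((m + 1) * ((2 / N) ^ k * (2 * 3 ^ k) ^ m)) =
      (m + 1 : ℝ) * 2 ^ k * 2 ^ m * (3 ^ m) ^ k := by
    rw [div_pow, mul_pow, ← pow_mul, ← pow_mul, mul_comm k m]
    field_simp
  rw [h1]
  have h2 : (m + 1 : ℝ) ≤ (m + 1) ^ k := by
    apply le_self_pow₀ _ (by omega)
    have : (0 : ℝ) ≤ m := Nat.cast_nonneg _
    linarith
  have h3 : (2 : ℝ) ^ m ≤ (2 ^ m) ^ k := by
    apply le_self_pow₀ _ (by omega)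
    exact one_le_pow₀ (by norm_num)
  calc (m + 1 : ℝ) * 2 ^ k * 2 ^ m * (3 ^ m) ^ k
      ≤ (m + 1 : ℝ) ^ k * 2 ^ k * (2 ^ m) ^ k * (3 ^ m) ^ k := by gcongr
    _ = (2 * (m + 1) * 6 ^ m : ℝ) ^ k := by
      rw [← mul_pow, ← mul_pow, ← mul_pow]
      congr 1
      have : (6 : ℝ) ^ m = 2 ^ m * 3 ^ m := by rw [← mul_pow]; norm_num
      rw [this]; ring

/-- The numerical heart of the low levels. -/
theorem numeric {N k m t : ℕ} {δ : ℝ} (hk1 : 1 ≤ k) (hN1 : 1 ≤ N)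
    (hN : 4 ≤ (N : ℝ) ^ (δ / 2)) (hk : (k : ℝ) ≤ (N : ℝ) ^ (1 - δ)) (ht : 8 ≤ δ * t)
    (hbig : (2 * (2 * (m + 1) * 6 ^ m) : ℝ) ^ t ≤ N) :
    4 * k ≤ N ∧
    ((N : ℝ) ^ k * ((m + 1) * ((2 / N) ^ k * (2 * 3 ^ k) ^ m)) /
      ((N / 2).choose ((k + 1) / 2))) ^ t * (N : ℝ) ^ (2 * k) ≤ (1 / (N : ℝ)) ^ k := by
  have hN1' : (1 : ℝ) ≤ N := by exact_mod_cast hN1
  have hN0 : (0 : ℝ) < N := by linarith
  have hk0 : (0 : ℝ) < k := by exact_mod_cast hk1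
  set y : ℝ := 2 * (N : ℝ) ^ (-(δ / 2)) with hy
  have hy0 : 0 < y := by positivity
  have hpow : (N : ℝ) ^ (-(δ / 2)) * (N : ℝ) ^ (δ / 2) = 1 := by
    rw [← Real.rpow_add hN0]; simp
  have hx : (N : ℝ) ^ (-(δ / 2)) ≤ 1 / 4 := by
    have h1 : 0 < (N : ℝ) ^ (-(δ / 2)) := by positivity
    nlinarith
  have hy1 : y ≤ 1 := by rw [hy]; linarith
  -- `4 k / N ≤ y ^ 2`
  have h4k : 4 * (k : ℝ) ≤ N * y ^ 2 := by
    have h1 : (N : ℝ) * y ^ 2 = 4 * (N : ℝ) ^ (1 - δ) := by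
      rw [hy, mul_pow, ← Real.rpow_natCast ((N : ℝ) ^ (-(δ / 2))) 2, ← Real.rpow_mul hN0.le]
      have h2 : (N : ℝ) ^ (1 - δ) = (N : ℝ) ^ (1 : ℝ) * (N : ℝ) ^ (-(δ / 2) * ((2 : ℕ) : ℝ)) := by
        rw [← Real.rpow_add hN0]
        congr 1
        push_cast
        ring
      rw [h2, Real.rpow_one]; ring
    rw [h1]; linarith
  have h4kN : 4 * k ≤ N := by
    have h1 : 4 * (k : ℝ) ≤ N := by
      have h2 : y ^ 2 ≤ 1 := pow_le_one₀ hy0.le hy1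
      have h3 : (N : ℝ) * y ^ 2 ≤ N * 1 := mul_le_mul_of_nonneg_left h2 hN0.le
      linarith
    exact_mod_cast h1
  refine ⟨h4kN, ?_⟩
  set C₁ : ℝ := 2 * (m + 1) * 6 ^ m with hC₁
  have hC₁0 : 0 < C₁ := by positivity
  set j := (k + 1) / 2 with hj
  have hchoose := div_pow_le_choose hk1 h4kN
  rw [← hj] at hchoose
  have hq0 : (0 : ℝ) < ((N : ℝ) / (4 * k)) ^ j := by positivity
  have hs : (N : ℝ) ^ k * ((m + 1) * ((2 / N) ^ k * (2 * 3 ^ k) ^ m)) / ((N / 2).choose j) ≤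
      (C₁ * y) ^ k := by
    calc (N : ℝ) ^ k * ((m + 1) * ((2 / N) ^ k * (2 * 3 ^ k) ^ m)) / ((N / 2).choose j)
        ≤ C₁ ^ k / ((N : ℝ) / (4 * k)) ^ j := by
          apply div_le_div₀ (by positivity) (const_le hN0 m k hk1) hq0 hchoose
      _ = C₁ ^ k * (4 * k / N) ^ j := by
          rw [div_eq_mul_inv, ← inv_pow, inv_div]
      _ ≤ C₁ ^ k * (y ^ 2) ^ j := by
          gcongr
          rw [div_le_iff₀ hN0]
          linarith
      _ = C₁ ^ k * y ^ (2 * j) := by rw [← pow_mul]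
      _ ≤ C₁ ^ k * y ^ k := by
          gcongr ?_ * ?_
          exact pow_le_pow_of_le_one hy0.le hy1 (by omega)
      _ = (C₁ * y) ^ k := (mul_pow C₁ y k).symm
  have hs0 : 0 ≤ (N : ℝ) ^ k * ((m + 1) * ((2 / N) ^ k * (2 * 3 ^ k) ^ m)) /
      ((N / 2).choose j) := by positivity
  have hfin : (C₁ * y) ^ t * (N : ℝ) ^ 2 ≤ 1 / N := by
    have h1 : C₁ * y = (2 * C₁) * (N : ℝ) ^ (-(δ / 2)) := by rw [hy]; ring
    have h2 : ((N : ℝ) ^ (-(δ / 2))) ^ t ≤ 1 / (N : ℝ) ^ 4 := by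
      rw [← Real.rpow_natCast, ← Real.rpow_mul hN0.le]
      have h3 : (1 : ℝ) / (N : ℝ) ^ 4 = (N : ℝ) ^ (-4 : ℝ) := by
        rw [Real.rpow_neg hN0.le, one_div]
        congr 1
        rw [← Real.rpow_natCast]
        norm_num
      rw [h3]
      apply Real.rpow_le_rpow_of_exponent_le hN1'
      linarith
    rw [h1, mul_pow]
    calc (2 * C₁) ^ t * ((N : ℝ) ^ (-(δ / 2))) ^ t * (N : ℝ) ^ 2
        ≤ (N : ℝ) * (1 / (N : ℝ) ^ 4) * (N : ℝ) ^ 2 := by gcongr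
      _ = 1 / (N : ℝ) := by field_simp
  calc _ ≤ ((C₁ * y) ^ k) ^ t * (N : ℝ) ^ (2 * k) := by gcongr
    _ = ((C₁ * y) ^ t * (N : ℝ) ^ 2) ^ k := by
      rw [mul_pow ((C₁ * y) ^ t), ← pow_mul, ← pow_mul, ← pow_mul, mul_comm k t]
    _ ≤ (1 / (N : ℝ)) ^ k := by gcongr

/-- **Part F.** -/
theorem propF (κ : ℝ) (hκ : 0 < κ) : PropF κ := by
  set δ := κ / 2 with hδdef
  have hδ : 0 < δ := by positivity
  obtain ⟨m₂, hm₂⟩ := exists_nat_ge (4 / κ)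
  obtain ⟨t, ht⟩ := exists_nat_ge (8 / δ)
  set M := m₂ + 1 with hM
  set m := 2 * m₂ + 1 with hm
  have hmM : M + M = m + 1 := by omega
  have hmκ : 4 ≤ (m : ℝ) * κ := by
    have h1 : 4 ≤ (m₂ : ℝ) * κ := by rwa [div_le_iff₀ hκ] at hm₂
    have h2 : (m : ℝ) = 2 * m₂ + 1 := by rw [hm]; push_cast; ring
    have h3 : (0 : ℝ) ≤ m₂ := Nat.cast_nonneg _
    rw [h2]
    nlinarith
  have hδt : 8 ≤ δ * t := by
    rw [div_le_iff₀ hδ] at ht
    linarith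
  obtain ⟨N₁, hN₁⟩ := exists_nat_ge ((4 : ℝ) ^ (2 / δ))
  obtain ⟨N₂, hN₂⟩ := exists_nat_ge ((2 * (2 * (m + 1) * 6 ^ m) : ℝ) ^ t)
  refine ⟨(M + M) * t, N₁ + N₂ + 2, 2, ?_⟩
  intro α _ _ q hN hq R hR heven k₀ hk₀
  set N := Fintype.card α with hNdef
  have hN1 : 1 ≤ N := by omega
  have hN0 : (0 : ℝ) < N := by exact_mod_cast hN1
  have hNδ : 4 ≤ (N : ℝ) ^ (δ / 2) := by
    have h1 : (4 : ℝ) ^ (2 / δ) ≤ N := by
      refine hN₁.trans ?_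
      exact_mod_cast (show N₁ ≤ N by omega)
    calc (4 : ℝ) = ((4 : ℝ) ^ (2 / δ)) ^ (δ / 2) := by
          rw [← Real.rpow_mul (by norm_num)]
          have : 2 / δ * (δ / 2) = 1 := by field_simp
          rw [this, Real.rpow_one]
      _ ≤ (N : ℝ) ^ (δ / 2) := by
          apply Real.rpow_le_rpow (by positivity) h1 (by positivity)
  have hbig : (2 * (2 * (m + 1) * 6 ^ m) : ℝ) ^ t ≤ N := by
    refine hN₂.trans ?_
    exact_mod_cast (show N₂ ≤ N by omega)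
  have hk₀' : (k₀ : ℝ) ≤ (N : ℝ) ^ (1 - δ) := hk₀
  have hlevel : ∀ k, 1 ≤ k → k ≤ k₀ →
      trOn (op q ^ R) (Low (lth α) k ⊓ (Low (lth α) (k - 1))ᗮ) ≤ (1 / (N : ℝ)) ^ k := by
    intro k hk1 hkk
    have hk : (k : ℝ) ≤ (N : ℝ) ^ (1 - δ) := by
      refine le_trans ?_ hk₀'
      exact_mod_cast hkk
    obtain ⟨h4k, hnum⟩ := numeric hk1 hN1 hNδ hk hδt hbig
    refine le_trans ?_ hnum
    refine trOn_level_le hq.nonneg hq.sum_le hq.symm hq.class_fn hk1 h4k (m := M)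
      (p := (m + 1) * ((2 / (N : ℝ)) ^ k * (2 * 3 ^ k) ^ m)) (by positivity) ?_ t R hR heven
    intro K hK
    rw [hmM]
    have h1 := H560.fix_convPow_le_rpow (κ := κ) (δ := δ) (m := m) (by linarith) hδ
      (by rw [hδdef]; linarith) hN1 hNδ (H560.law_of_data hq) K (by rw [hK]; exact hk)
    rw [hK] at h1
    exact h1
  have h1 := trOn_low_le hq.nonneg R k₀ hlevel
  have h2 : (1 : ℝ) / N ≤ 1 / 2 := by
    apply one_div_le_one_div_of_le (by norm_num)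
    exact_mod_cast (show 2 ≤ N by omega)
  have h3 := sum_geom_le (x := 1 / (N : ℝ)) (by positivity) h2 k₀
  rw [LowS_eq]
  refine h1.trans ?_
  have h4 : 2 * (1 / (N : ℝ)) = 2 / N := by ring
  linarith

end Vale.Agent.P162.H151
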