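import Vale.Agent.P162.H151.Level

/-!
# P162 stage 2, part F2: traces on the low levels
-/

open scoped BigOperators InnerProductSpace
open Equiv

set_option linter.unusedSectionVars false

namespace Vale.Agent.P162.H151

open Vale.Agent.P162 (conv convPow)
open Vale.Agent.P162.S2.Abs (FS lt lt_apply op op_apply InvS LowS trOn)

variable {α : Type*} [Fintype α] [DecidableEq α]

/-! ### Traces on subspaces -/

theorem inner_proj_of_mem {E : Submodule ℝ (FS α)} (v : FS α) {u : FS α} (hu : u ∈ E) :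
    ⟪v, u⟫_ℝ = ⟪E.starProjection v, u⟫_ℝ := by
  rw [Submodule.inner_starProjection_left_eq_right, Submodule.starProjection_eq_self_iff.2 hu]

theorem trace_proj (E : Submodule ℝ (FS α)) :
    ∑ g : Perm α, ‖E.starProjection (EuclideanSpace.single g (1 : ℝ))‖ ^ 2 =
      Module.finrank ℝ E := by
  have h1 : LinearMap.IsProj E (E.starProjection : FS α →L[ℝ] FS α).toLinearMap :=
    ⟨fun x => E.starProjection_apply_mem x,
      fun x hx => Submodule.starProjection_eq_self_iff.2 hx⟩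
  have h2 := h1.trace
  rw [LinearMap.trace_eq_sum_inner _ (EuclideanSpace.basisFun (Perm α) ℝ)] at h2
  rw [← h2]
  refine Finset.sum_congr rfl fun g _ => ?_
  rw [EuclideanSpace.basisFun_apply, ← real_inner_self_eq_norm_sq, ContinuousLinearMap.coe_coe]
  exact (inner_proj_of_mem _ (E.starProjection_apply_mem _)).symm

/-- A bound for the trace on an invariant subspace. -/
theorem trOn_le_of {A : FS α →ₗ[ℝ] FS α} {E : Submodule ℝ (FS α)} (hE : ∀ f ∈ E, A f ∈ E) {s : ℝ}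
    (h : ∀ f ∈ E, ⟪A f, f⟫_ℝ ≤ s * ‖f‖ ^ 2) : trOn A E ≤ s * Module.finrank ℝ E := by
  rw [trOn, LinearMap.trace_eq_sum_inner _ (EuclideanSpace.basisFun (Perm α) ℝ), ← trace_proj E,
    Finset.mul_sum]
  refine Finset.sum_le_sum fun g _ => ?_
  rw [EuclideanSpace.basisFun_apply, LinearMap.comp_apply, ContinuousLinearMap.coe_coe,
    inner_proj_of_mem _ (hE _ (E.starProjection_apply_mem _)), real_inner_comm]
  exact h _ (E.starProjection_apply_mem _)

theorem starProjection_eq_add {U W : Submodule ℝ (FS α)} (hUW : U ≤ W) (v : FS α) :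
    W.starProjection v = U.starProjection v + (W ⊓ Uᗮ).starProjection v := by
  have h1 := U.starProjection_apply_mem v
  have h2 := (W ⊓ Uᗮ).starProjection_apply_mem v
  have h3 := U.sub_starProjection_mem_orthogonal v
  have h4 := (W ⊓ Uᗮ).sub_starProjection_mem_orthogonal v
  apply Submodule.eq_starProjection_of_mem_of_inner_eq_zero
  · exact W.add_mem (hUW h1) h2.1
  · intro w hw
    have h5 := U.starProjection_apply_mem w
    have h6 := U.sub_starProjection_mem_orthogonal w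
    have h7 : w - U.starProjection w ∈ W ⊓ Uᗮ := ⟨W.sub_mem hw (hUW h5), h6⟩
    have h8 : w = U.starProjection w + (w - U.starProjection w) := by abel
    rw [Submodule.mem_orthogonal'] at h3 h4 h6
    have e1 := h3 _ h5
    have e2 := h4 _ h7
    have e3 : ⟪(W ⊓ Uᗮ).starProjection v, U.starProjection w⟫_ℝ = 0 :=
      (Submodule.mem_orthogonal' _ _).1 h2.2 _ h5
    have e4 : ⟪U.starProjection v, w - U.starProjection w⟫_ℝ = 0 := by
      rw [real_inner_comm]; exact h6 _ h1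
    rw [h8]
    simp only [inner_sub_left, inner_add_left, inner_add_right] at *
    linarith

theorem trOn_eq_add {U W : Submodule ℝ (FS α)} (hUW : U ≤ W) (A : FS α →ₗ[ℝ] FS α) :
    trOn A W = trOn A U + trOn A (W ⊓ Uᗮ) := by
  rw [trOn, trOn, trOn, ← map_add]
  congr 1
  ext1 v
  rw [LinearMap.add_apply, LinearMap.comp_apply, LinearMap.comp_apply, LinearMap.comp_apply,
    ← map_add]
  congr 1
  exact starProjection_eq_add hUW v

/-! ### Eigenvalues -/

theorem rayleigh_pow_le {E : Type*} [NormedAddCommGroup E] [InnerProductSpace ℝ E]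
    [FiniteDimensional ℝ E] (T : E →ₗ[ℝ] E) (hT : T.IsSymmetric) (M : ℝ) (R : ℕ)
    (h : ∀ (μ : ℝ) (v : E), v ≠ 0 → T v = μ • v → μ ^ R ≤ M) (w : E) :
    ⟪(T ^ R) w, w⟫_ℝ ≤ M * ‖w‖ ^ 2 := by
  set b := hT.eigenvectorBasis (rfl : Module.finrank ℝ E = _) with hb
  have h1 : ∀ i, T (b i) = (hT.eigenvalues rfl i) • b i := fun i =>
    hT.apply_eigenvectorBasis rfl i
  have h2 : ∀ i, hT.eigenvalues rfl i ^ R ≤ M := fun i => h _ (b i) (by
    have := b.orthonormal.ne_zero i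
    exact this) (h1 i)
  have h3 : ∀ i (r : ℕ), (T ^ r) (b i) = (hT.eigenvalues rfl i ^ r) • b i := by
    intro i r
    induction r with
    | zero => simp
    | succ r ih =>
      rw [pow_succ', Module.End.mul_apply, ih, map_smul, h1, smul_smul, ← pow_succ]
  have h4 : ∀ (r : ℕ) (x y : E), ⟪(T ^ r) x, y⟫_ℝ = ⟪x, (T ^ r) y⟫_ℝ := by
    intro r
    induction r with
    | zero => intro x y; simp
    | succ r ih =>
      intro x y
      rw [pow_succ, Module.End.mul_apply, ih, hT, ← Module.End.mul_apply, ← pow_succ', pow_succ]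
  rw [← b.sum_inner_mul_inner ((T ^ R) w) w, ← real_inner_self_eq_norm_sq,
    ← b.sum_inner_mul_inner w w, Finset.mul_sum]
  refine Finset.sum_le_sum fun i _ => ?_
  rw [h4 R w (b i), h3 i, real_inner_smul_right, mul_assoc, real_inner_comm (b i) w]
  have := h2 i
  nlinarith [mul_self_nonneg (⟪b i, w⟫_ℝ : ℝ)]

theorem norm_op_le {q : Perm α → ℝ} (hq : ∀ g, 0 ≤ q g) (hsum : ∑ g, q g ≤ 1) (f : FS α) :
    ‖op q f‖ ≤ ‖f‖ := by
  have h1 : op q f = ∑ g, q g • lth α g f := by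
    ext h
    rw [op_apply]
    simp [WithLp.ofLp_sum, Finset.sum_apply, lth_apply]
  rw [h1]
  calc ‖∑ g, q g • lth α g f‖ ≤ ∑ g, ‖q g • lth α g f‖ := norm_sum_le _ _
    _ = ∑ g, q g * ‖f‖ := by
      refine Finset.sum_congr rfl fun g _ => ?_
      rw [norm_smul, norm_lth, Real.norm_of_nonneg (hq g)]
    _ = (∑ g, q g) * ‖f‖ := by rw [Finset.sum_mul]
    _ ≤ 1 * ‖f‖ := by gcongr
    _ = ‖f‖ := one_mul _

theorem restrict_pow_coe {A : FS α →ₗ[ℝ] FS α} {U : Submodule ℝ (FS α)} (hU : ∀ f ∈ U, A f ∈ U)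
    (R : ℕ) (w : U) : (((A.restrict hU) ^ R) w : FS α) = (A ^ R) (w : FS α) := by
  induction R with
  | zero => simp
  | succ R ih =>
    rw [pow_succ', pow_succ', Module.End.mul_apply, Module.End.mul_apply, ← ih]
    rfl

/-- A bound for the quadratic form of `Q^R` from one for `Q^(2m)`. -/
theorem pow_le_of {q : Perm α → ℝ} (hq : ∀ g, 0 ≤ q g) (hsum : ∑ g, q g ≤ 1)
    (hsymm : ∀ g, q g⁻¹ = q g) {U : Submodule ℝ (FS α)} (hU : ∀ f ∈ U, op q f ∈ U) {m : ℕ} {s : ℝ}
    (h : ∀ f ∈ U, ⟪(op q ^ (m + m)) f, f⟫_ℝ ≤ s * ‖f‖ ^ 2) (t R : ℕ) (hR : (m + m) * t ≤ R)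
    (heven : Even R) {f : FS α} (hf : f ∈ U) :
    ⟪(op q ^ R) f, f⟫_ℝ ≤ s ^ t * ‖f‖ ^ 2 := by
  let T : U →ₗ[ℝ] U := (op q).restrict hU
  have hT : T.IsSymmetric := fun x y => op_symm hsymm _ _
  have key : ∀ (μ : ℝ) (v : U), v ≠ 0 → T v = μ • v → μ ^ R ≤ s ^ t := by
    intro μ v hv hTv
    have hv0 : (v : FS α) ≠ 0 := fun h => hv (Subtype.ext h)
    have hvpos : 0 < ‖(v : FS α)‖ := norm_pos_iff.2 hv0
    have hQv : op q v = μ • (v : FS α) := congrArg Subtype.val hTv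
    have hpow : ∀ r : ℕ, (op q ^ r) v = μ ^ r • (v : FS α) := by
      intro r
      induction r with
      | zero => simp
      | succ r ih =>
        rw [pow_succ', Module.End.mul_apply, ih, map_smul, hQv, smul_smul, ← pow_succ]
    have h1 : |μ| ≤ 1 := by
      have := norm_op_le hq hsum (v : FS α)
      rw [hQv, norm_smul, Real.norm_eq_abs] at this
      exact le_of_mul_le_mul_right (by linarith) hvpos
    have h2 : μ ^ (m + m) ≤ s := by
      have := h v v.2
      rw [hpow, real_inner_smul_left, real_inner_self_eq_norm_sq] at this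
      exact le_of_mul_le_mul_right this (by positivity)
    calc μ ^ R = |μ| ^ R := by rw [heven.pow_abs]
      _ ≤ |μ| ^ ((m + m) * t) := pow_le_pow_of_le_one (abs_nonneg _) h1 hR
      _ = (μ ^ (m + m)) ^ t := by
        rw [pow_mul, (show Even (m + m) from ⟨m, rfl⟩).pow_abs]
      _ ≤ s ^ t := pow_le_pow_left₀ ((show Even (m + m) from ⟨m, rfl⟩).pow_nonneg _) h2 _
  have h3 := rayleigh_pow_le T hT _ R key ⟨f, hf⟩
  have h4 : ⟪(T ^ R) ⟨f, hf⟩, (⟨f, hf⟩ : U)⟫_ℝ = ⟪(op q ^ R) f, f⟫_ℝ := by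
    rw [Submodule.coe_inner, restrict_pow_coe hU R]
  rw [h4] at h3
  exact h3

/-! ### Level zero -/

theorem lth_of_mem_low_zero {f : FS α} (hf : f ∈ Low (lth α) 0) (g : Perm α) :
    lth α g f = f := by
  have h1 : Low (lth α) 0 ≤ LinearMap.ker (lth α g - LinearMap.id) := by
    refine iSup₂_le fun B hB f hf => ?_
    rw [LinearMap.mem_ker, LinearMap.sub_apply, LinearMap.id_apply, sub_eq_zero]
    have hB' : B = Finset.univ := by
      rw [← Finset.card_eq_iff_eq_univ]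
      exact le_antisymm (Finset.card_le_univ B) (by simpa using hB)
    subst hB'
    exact fixed_of_support hf _ _ rfl (Finset.subset_univ _)
  have h2 := h1 hf
  rwa [LinearMap.mem_ker, LinearMap.sub_apply, LinearMap.id_apply, sub_eq_zero] at h2

theorem op_pow_low_zero {q : Perm α → ℝ} {f : FS α} (hf : f ∈ Low (lth α) 0) (R : ℕ) :
    (op q ^ R) f = (∑ g, q g) ^ R • f := by
  have h1 : op q f = (∑ g, q g) • f := by
    have : op q f = ∑ g, q g • lth α g f := by
      ext h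
      rw [op_apply]
      simp [WithLp.ofLp_sum, Finset.sum_apply, lth_apply]
    rw [this, Finset.sum_smul]
    exact Finset.sum_congr rfl fun g _ => by rw [lth_of_mem_low_zero hf]
  induction R with
  | zero => simp
  | succ R ih => rw [pow_succ', Module.End.mul_apply, ih, map_smul, h1, smul_smul, ← pow_succ]

theorem op_mem_low {q : Perm α → ℝ} {k : ℕ} {f : FS α} (hf : f ∈ Low (lth α) k) (R : ℕ) :
    (op q ^ R) f ∈ Low (lth α) k := (isConv_pow q R).mem_low hf

theorem op_mem_low_orth {q : Perm α → ℝ} {k : ℕ} {f : FS α} (hf : f ∈ (Low (lth α) k)ᗮ) (R : ℕ) :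
    (op q ^ R) f ∈ (Low (lth α) k)ᗮ := (isConv_pow q R).mem_low_orth hf

theorem trOn_low_zero_le {q : Perm α → ℝ} (hq : ∀ g, 0 ≤ q g) (R : ℕ) :
    trOn (op q ^ R) (Low (lth α) 0) ≤ (∑ g, q g) ^ R := by
  have h0 : 0 ≤ (∑ g, q g) ^ R := pow_nonneg (Finset.sum_nonneg fun g _ => hq g) _
  have h1 : trOn (op q ^ R) (Low (lth α) 0) ≤
      (∑ g, q g) ^ R * Module.finrank ℝ (Low (lth α) 0) := by
    refine trOn_le_of (fun f hf => op_mem_low hf R) fun f hf => ?_
    rw [op_pow_low_zero hf, real_inner_smul_left, real_inner_self_eq_norm_sq]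
  have h2 : (Module.finrank ℝ (Low (lth α) 0) : ℝ) ≤ 1 := by
    have := finrank_low_le (α := α) (k := 0) (Nat.zero_le _)
    simpa using this
  calc _ ≤ _ := h1
    _ ≤ (∑ g, q g) ^ R * 1 := by gcongr
    _ = _ := mul_one _

/-- **(F2c)** The trace on one level. -/
theorem trOn_level_le {q : Perm α → ℝ} (hq : ∀ g, 0 ≤ q g) (hsum : ∑ g, q g ≤ 1)
    (hsymm : ∀ g, q g⁻¹ = q g) (hclass : ∀ x g, q (x * g * x⁻¹) = q g) {k : ℕ} (hk1 : 1 ≤ k)
    (hk : 4 * k ≤ Fintype.card α) {m : ℕ} {p : ℝ} (hp0 : 0 ≤ p)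
    (hp : ∀ K : Finset α, K.card = k →
      ∑ s : Perm α with ∀ a ∈ K, s a = a, convPow q (m + m) s ≤ p)
    (t R : ℕ) (hR : (m + m) * t ≤ R) (heven : Even R) :
    trOn (op q ^ R) (Low (lth α) k ⊓ (Low (lth α) (k - 1))ᗮ) ≤
      ((Fintype.card α : ℝ) ^ k * p / ((Fintype.card α / 2).choose ((k + 1) / 2))) ^ t *
        (Fintype.card α : ℝ) ^ (2 * k) := by
  set s : ℝ := (Fintype.card α : ℝ) ^ k * p / ((Fintype.card α / 2).choose ((k + 1) / 2)) with hs
  have hs0 : 0 ≤ s := by positivity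
  have h1 : trOn (op q ^ R) (Low (lth α) k ⊓ (Low (lth α) (k - 1))ᗮ) ≤
      s ^ t * Module.finrank ℝ (Low (lth α) k ⊓ (Low (lth α) (k - 1))ᗮ : Submodule ℝ (FS α)) := by
    refine trOn_le_of (fun f (hf : f ∈ Low (lth α) k ⊓ (Low (lth α) (k - 1))ᗮ) =>
      (⟨op_mem_low hf.1 R, op_mem_low_orth hf.2 R⟩ :
        _ ∈ Low (lth α) k ⊓ (Low (lth α) (k - 1))ᗮ)) fun f hf => ?_
    refine pow_le_of hq hsum hsymm (U := Low (lth α) k ⊓ (Low (lth α) (k - 1))ᗮ) ?_ ?_ t R hR
      heven hf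
    · intro f hf
      exact ⟨by simpa using op_mem_low (q := q) hf.1 1,
        by simpa using op_mem_low_orth (q := q) hf.2 1⟩
    · intro f hf
      exact level_le hsymm hclass hk1 hk hp0 hp hf.1 hf.2
  refine h1.trans ?_
  have h2 : (Module.finrank ℝ (Low (lth α) k ⊓ (Low (lth α) (k - 1))ᗮ : Submodule ℝ (FS α)) : ℝ) ≤
      (Fintype.card α : ℝ) ^ (2 * k) := by
    have := (Submodule.finrank_mono (inf_le_left :
      Low (lth α) k ⊓ (Low (lth α) (k - 1))ᗮ ≤ Low (lth α) k)).trans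
      (finrank_low_le (α := α) (k := k) (by omega))
    exact_mod_cast this
  gcongr

/-- Summation over the levels. -/
theorem trOn_low_le {q : Perm α → ℝ} (hq : ∀ g, 0 ≤ q g) (R : ℕ) {x : ℝ} (k₀ : ℕ)
    (h : ∀ k, 1 ≤ k → k ≤ k₀ →
      trOn (op q ^ R) (Low (lth α) k ⊓ (Low (lth α) (k - 1))ᗮ) ≤ x ^ k) :
    trOn (op q ^ R) (Low (lth α) k₀) ≤ (∑ g, q g) ^ R + ∑ k ∈ Finset.Icc 1 k₀, x ^ k := by
  induction k₀ with
  | zero => simpa using trOn_low_zero_le hq R
  | succ k₀ ih =>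
    rw [trOn_eq_add (Low_mono (Nat.le_succ k₀)), Finset.sum_Icc_succ_top (by omega), ← add_assoc]
    have h1 := ih fun k hk1 hk2 => h k hk1 (by omega)
    have h2 := h (k₀ + 1) (by omega) le_rfl
    rw [Nat.add_sub_cancel] at h2
    linarith

theorem sum_geom_le {x : ℝ} (hx0 : 0 ≤ x) (hx : x ≤ 1 / 2) (k₀ : ℕ) :
    ∑ k ∈ Finset.Icc 1 k₀, x ^ k ≤ 2 * x := by
  have h1 : ∀ n : ℕ, ∑ k ∈ Finset.Icc 1 n, x ^ k ≤ 2 * x - x ^ n * (2 * x) := by
    intro n
    induction n with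
    | zero => simp
    | succ n ih =>
      rw [Finset.sum_Icc_succ_top (by omega)]
      have h2 : x ^ n * x * (1 - 2 * x) ≥ 0 := by
        apply mul_nonneg (by positivity)
        linarith
      rw [pow_succ]
      nlinarith
  have h2 : 0 ≤ x ^ k₀ * (2 * x) := by positivity
  linarith [h1 k₀]

end Vale.Agent.P162.H151
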